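import Vale.Agent.P369.H946.E3c
import Vale.Agent.P369.H809.Path

/-!
P369 (helper624): the loss channel on the kernels of arbitrary states: summability, positivity,
trace, energy and the derivative in the transmissivity.
-/

namespace Vale.Agent.P369O

open Matrix MeasureTheory Set Filter
open Vale.Agent.P369 (Conf up down)
open Vale.Agent.P369A
open Vale.Agent.P369F
open Vale.Agent.P369L (bsc b1 lossI lt bsc_nonneg bsc_le_one bsc_up bsc_up' up_add add_up bsc_down)
open scoped ComplexOrder Topology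

noncomputable section

variable {n : ℕ}

/-- the kernel of a state -/
structure StK (s : Ker n) : Prop where
  psd : ∀ X, (cut X s).PosSemidef
  tr : HasSum (fun x : Conf n => (s x x).re) 1

theorem herm_of_psd {s : Ker n} (h : ∀ X, (cut X s).PosSemidef) (a b : Conf n) :
    star (s b a) = s a b := by
  set X := (∑ j, a j) + ∑ j, b j
  have h1 := (h X).isHermitian.apply (⟨a, by omega⟩ : Ct n X) ⟨b, by omega⟩
  exact h1

theorem diag_im_of_psd {s : Ker n} (h : ∀ X, (cut X s).PosSemidef) (a : Conf n) :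
    (s a a).im = 0 := by
  have h1 := herm_of_psd h a a
  exact Complex.conj_eq_iff_im.1 h1

theorem two_norm_le {s : Ker n} (h : ∀ X, (cut X s).PosSemidef) (a b : Conf n) :
    2 * ‖s a b‖ ≤ (s a a).re + (s b b).re := by
  by_cases hab : a = b
  · subst hab
    have h1 := diag_im_of_psd h a
    have h2 := diag_nonneg_of_cut h a
    have h3 : ‖s a a‖ = (s a a).re := by
      rw [← Complex.re_add_im (s a a), h1]
      simp [abs_of_nonneg h2]
    rw [h3]
    linarith
  set X := (∑ j, a j) + ∑ j, b j with hX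
  set A : Ct n X := ⟨a, by omega⟩ with hA
  set B : Ct n X := ⟨b, by omega⟩ with hB
  have hAB : A ≠ B := fun h' => hab (congrArg (fun z : Ct n X => z.1) h')
  obtain ⟨u, hu1, hu2⟩ : ∃ u : ℂ, ‖u‖ = 1 ∧ (s a b) * u = (‖s a b‖ : ℂ) := by
    by_cases h0 : s a b = 0
    · exact ⟨1, by simp, by simp [h0]⟩
    · refine ⟨(starRingEnd ℂ) (s a b) / ‖s a b‖, ?_, ?_⟩
      · rw [norm_div, RCLike.norm_conj, Complex.norm_real, norm_norm, div_self]
        exact norm_ne_zero_iff.2 h0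
      · rw [mul_div_assoc', Complex.mul_conj, Complex.normSq_eq_norm_sq]
        have : (‖s a b‖ : ℂ) ≠ 0 := by
          exact_mod_cast norm_ne_zero_iff.2 h0
        push_cast
        field_simp
  have hpos := (h X).re_dotProduct_nonneg (Pi.single A 1 - Pi.single B u)
  have e : (star (Pi.single A 1 - Pi.single B u) ⬝ᵥ
      (cut X s).mulVec (Pi.single A (1 : ℂ) - Pi.single B u)) =
      s a a - (starRingEnd ℂ) u * s b a - (s a b) * u + (starRingEnd ℂ) u * s b b * u := by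
    simp [Matrix.mulVec_sub, sub_dotProduct, dotProduct_sub, cut, A, B]
    ring
  rw [e] at hpos
  have e1 : (starRingEnd ℂ) u * s b a = (‖s a b‖ : ℂ) := by
    have h1 := herm_of_psd h a b
    have h2 : s b a = (starRingEnd ℂ) (s a b) := by
      rw [← h1]; simp
    rw [h2, ← map_mul, mul_comm, hu2, Complex.conj_ofReal]
  have e2 : (starRingEnd ℂ) u * s b b * u = s b b := by
    have h3 : (starRingEnd ℂ) u * u = 1 := by
      rw [mul_comm, Complex.mul_conj, Complex.normSq_eq_norm_sq, hu1]; simp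
    calc (starRingEnd ℂ) u * s b b * u = ((starRingEnd ℂ) u * u) * s b b := by ring
      _ = _ := by rw [h3, one_mul]
  rw [e1, hu2, e2] at hpos
  simp only [Complex.add_re, Complex.sub_re, Complex.ofReal_re, RCLike.re_to_complex] at hpos
  linarith

theorem StK.le_one {s : Ker n} (h : StK s) (a : Conf n) : (s a a).re ≤ 1 := by
  have h1 := h.tr
  exact le_hasSum h1 a fun b _ => diag_nonneg_of_cut h.psd b

theorem StK.norm_le {s : Ker n} (h : StK s) (a b : Conf n) : ‖s a b‖ ≤ 1 := by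
  have h1 := two_norm_le h.psd a b
  have h2 := h.le_one a
  have h3 := h.le_one b
  linarith

/-! ### majorants -/

/-- the constant of the majorant -/
def Kc (lo : ℝ) (p : Conf n) : ℝ := ∏ j, (1 / lo) ^ (p j + 1)

theorem Kc_pos {lo : ℝ} (h : 0 < lo) (p : Conf n) : 0 < Kc lo p :=
  Finset.prod_pos fun _ _ => by positivity

theorem b1_sq_le {lo x : ℝ} (h0 : 0 < lo) (h1 : lo ≤ x) (h2 : x ≤ 1) (a c : ℕ) :
    b1 x a c ^ 2 ≤ (1 / lo) ^ (a + 1) * nb (1 / lo) a c := by
  rw [P369L.b1_sq (h0.le.trans h1) h2]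
  unfold nb
  rw [one_div_one_div]
  have e : (1 / lo) ^ (a + 1) * (((a + c).choose c : ℝ) * lo ^ (a + 1) * (1 - lo) ^ c) =
      ((a + c).choose c : ℝ) * 1 * (1 - lo) ^ c := by
    have : (1 / lo) ^ (a + 1) * lo ^ (a + 1) = 1 := by
      rw [← mul_pow, one_div_mul_cancel h0.ne', one_pow]
    linear_combination (((a + c).choose c : ℝ) * (1 - lo) ^ c) * this
  rw [e]
  have h3 : x ^ a ≤ 1 := pow_le_one₀ (h0.le.trans h1) h2
  have h4 : (1 - x) ^ c ≤ (1 - lo) ^ c := pow_le_pow_left₀ (by linarith) (by linarith) _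
  have h5 : (0 : ℝ) ≤ (1 - x) ^ c := pow_nonneg (by linarith) _
  have h6 : (0 : ℝ) ≤ ((a + c).choose c : ℝ) := Nat.cast_nonneg _
  have h7 : (0 : ℝ) ≤ x ^ a := pow_nonneg (h0.le.trans h1) _
  calc ((a + c).choose c : ℝ) * x ^ a * (1 - x) ^ c
      ≤ ((a + c).choose c : ℝ) * 1 * (1 - x) ^ c := by gcongr
    _ ≤ _ := by gcongr

theorem bsc_sq_le {lo x : ℝ} (h0 : 0 < lo) (h1 : lo ≤ x) (h2 : x ≤ 1) (p q : Conf n) :
    bsc x p q ^ 2 ≤ Kc lo p * P369W.ccV (fun _ => 1 / lo) p q ^ 2 := by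
  rw [P369W.ccV_sq (fun _ => (one_le_div h0).2 (h1.trans h2))]
  unfold bsc Kc
  rw [← Finset.prod_pow, ← Finset.prod_mul_distrib]
  exact Finset.prod_le_prod (fun _ _ => sq_nonneg _) fun j _ => b1_sq_le h0 h1 h2 _ _

/-- the majorant of the terms -/
def maj (lo : ℝ) (p p' q : Conf n) : ℝ :=
  Kc lo p * P369W.ccV (fun _ => 1 / lo) p q ^ 2 + Kc lo p' * P369W.ccV (fun _ => 1 / lo) p' q ^ 2

theorem maj_nonneg {lo : ℝ} (h0 : 0 < lo) (p p' q : Conf n) : 0 ≤ maj lo p p' q := by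
  have h1 := Kc_pos h0 p
  have h2 := Kc_pos h0 p'
  unfold maj
  positivity

theorem bsc_mul_le {lo x : ℝ} (h0 : 0 < lo) (h1 : lo ≤ x) (h2 : x ≤ 1) (p p' q : Conf n) :
    bsc x p q * bsc x p' q ≤ maj lo p p' q := by
  have h3 := bsc_sq_le h0 h1 h2 p q
  have h4 := bsc_sq_le h0 h1 h2 p' q
  have h5 := two_mul_le_add_sq (bsc x p q) (bsc x p' q)
  have h6 := mul_nonneg (bsc_nonneg x p q) (bsc_nonneg x p' q)
  unfold maj
  linarith

theorem summable_maj {lo : ℝ} (h0 : 0 < lo) (h1 : lo ≤ 1) (p p' : Conf n) :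
    Summable (maj lo p p') :=
  (((P369W.hasSum_ccV_sq (fun _ => (one_le_div h0).2 h1) p).summable.mul_left _).add
    ((P369W.hasSum_ccV_sq (fun _ => (one_le_div h0).2 h1) p').summable.mul_left _))

theorem summable_mul_maj {lo : ℝ} (h0 : 0 < lo) (h1 : lo ≤ 1) (p p' : Conf n) :
    Summable fun q : Conf n => (∑ j, (q j : ℝ)) * maj lo p p' q := by
  have h : ∀ m : Conf n, Summable fun q : Conf n =>
      (∑ j, (q j : ℝ)) * P369W.ccV (fun _ => 1 / lo) m q ^ 2 := by
    intro m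
    have h2 := summable_sum (s := Finset.univ) fun (j : Fin n) _ =>
      (P369W.hasSum_mul_ccV_sq_j (k := fun _ => 1 / lo) (fun _ => (one_le_div h0).2 h1) m j).summable
    refine h2.congr fun q => ?_
    rw [Finset.sum_mul]
  refine (((h p).mul_left (Kc lo p)).add ((h p').mul_left (Kc lo p'))).congr fun q => ?_
  unfold maj
  ring

theorem norm_lt_le {s : Ker n} (hs : ∀ a b, ‖s a b‖ ≤ 1) {lo x : ℝ} (h0 : 0 < lo) (h1 : lo ≤ x)
    (h2 : x ≤ 1) (p p' q : Conf n) : ‖lt x s p p' q‖ ≤ maj lo p p' q := by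
  unfold lt
  rw [norm_mul, Complex.norm_real, Real.norm_of_nonneg (mul_nonneg (bsc_nonneg x p q)
    (bsc_nonneg x p' q))]
  have h3 := bsc_mul_le h0 h1 h2 p p' q
  calc bsc x p q * bsc x p' q * ‖s (p + q) (p' + q)‖ ≤ bsc x p q * bsc x p' q * 1 :=
        mul_le_mul_of_nonneg_left (hs _ _) (mul_nonneg (bsc_nonneg x p q) (bsc_nonneg x p' q))
    _ ≤ _ := by rw [mul_one]; exact h3

theorem summable_lt {s : Ker n} (hs : ∀ a b, ‖s a b‖ ≤ 1) {x : ℝ} (h0 : 0 < x) (h1 : x ≤ 1)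
    (p p' : Conf n) : Summable (lt x s p p') :=
  Summable.of_norm_bounded (summable_maj h0 h1 p p') fun q => norm_lt_le hs h0 le_rfl h1 p p' q

/-! ### the derivative in the transmissivity -/

theorem hasDerivAt_sqrt_pow {x : ℝ} (h0 : 0 < x) (a : ℕ) :
    HasDerivAt (fun x => Real.sqrt x ^ a) (Real.sqrt x ^ a * ((a : ℝ) / (2 * x))) x := by
  have h1 := (Real.hasDerivAt_sqrt h0.ne').pow a
  refine h1.congr_deriv ?_
  have hs : Real.sqrt x ≠ 0 := (Real.sqrt_pos.2 h0).ne'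
  have hx : x = Real.sqrt x * Real.sqrt x := (Real.mul_self_sqrt h0.le).symm
  rcases a with _ | a
  · simp
  · have e : (2 * x)⁻¹ = (2 * Real.sqrt x)⁻¹ * (Real.sqrt x)⁻¹ := by
      rw [← mul_inv]
      congr 1
      nlinarith
    rw [Nat.add_sub_cancel, div_eq_mul_inv, div_eq_mul_inv, e, pow_succ, one_mul]
    have e2 : Real.sqrt x * (Real.sqrt x)⁻¹ = 1 := mul_inv_cancel₀ hs
    linear_combination (-((a + 1 : ℕ) : ℝ) * Real.sqrt x ^ a * (2 * Real.sqrt x)⁻¹) * e2

theorem hasDerivAt_b1 {x : ℝ} (h0 : 0 < x) (h1 : x < 1) (a c : ℕ) :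
    HasDerivAt (fun x => b1 x a c) (b1 x a c * ((a : ℝ) / (2 * x) - (c : ℝ) / (2 * (1 - x)))) x := by
  have h2 : HasDerivAt (fun x => Real.sqrt (1 - x) ^ c)
      (Real.sqrt (1 - x) ^ c * ((c : ℝ) / (2 * (1 - x))) * (-1)) x :=
    (hasDerivAt_sqrt_pow (sub_pos.2 h1) c).comp x ((hasDerivAt_id x).const_sub 1)
  have h3 := ((hasDerivAt_sqrt_pow h0 a).const_mul (Real.sqrt ((a + c).choose c : ℕ))).mul h2
  unfold b1
  refine h3.congr_deriv ?_
  ring

theorem hasDerivAt_bsc {x : ℝ} (h0 : 0 < x) (h1 : x < 1) (p q : Conf n) :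
    HasDerivAt (fun x => bsc x p q)
      (bsc x p q * ((∑ j, (p j : ℝ)) / (2 * x) - (∑ j, (q j : ℝ)) / (2 * (1 - x)))) x := by
  unfold bsc
  have h2 := HasDerivAt.fun_finsetProd (u := Finset.univ) (f := fun j x => b1 x (p j) (q j))
    (f' := fun j => b1 x (p j) (q j) * (((p j : ℝ)) / (2 * x) - (q j : ℝ) / (2 * (1 - x))))
    (x := x) fun j _ => hasDerivAt_b1 h0 h1 (p j) (q j)
  refine h2.congr_deriv ?_
  have e : ∀ j : Fin n, (∏ i ∈ Finset.univ.erase j, b1 x (p i) (q i)) • (b1 x (p j) (q j) *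
      (((p j : ℝ)) / (2 * x) - (q j : ℝ) / (2 * (1 - x)))) =
      (∏ i, b1 x (p i) (q i)) * (((p j : ℝ)) / (2 * x) - (q j : ℝ) / (2 * (1 - x))) := by
    intro j
    rw [smul_eq_mul, ← mul_assoc, Finset.prod_erase_mul _ _ (Finset.mem_univ j)]
  rw [Finset.sum_congr rfl fun j _ => e j, ← Finset.mul_sum, Finset.sum_sub_distrib,
    Finset.sum_div, Finset.sum_div]

theorem hasDerivAt_lt {s : Ker n} {x : ℝ} (h0 : 0 < x) (h1 : x < 1) (p p' q : Conf n) :
    HasDerivAt (fun x => lt x s p p' q)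
      (((((∑ j, (p j : ℝ)) + ∑ j, (p' j : ℝ)) / (2 * x) - (∑ j, (q j : ℝ)) / (1 - x) : ℝ) : ℂ) *
        lt x s p p' q) x := by
  have h2 := (((hasDerivAt_bsc h0 h1 p q).mul (hasDerivAt_bsc h0 h1 p' q)).ofReal_comp).mul_const
    (s (p + q) (p' + q))
  refine (h2.congr_deriv ?_)
  unfold lt
  have h3 : (1 - x) ≠ 0 := by linarith
  have e : bsc x p q * ((∑ j, (p j : ℝ)) / (2 * x) - (∑ j, (q j : ℝ)) / (2 * (1 - x))) *
        bsc x p' q +
      bsc x p q * (bsc x p' q * ((∑ j, (p' j : ℝ)) / (2 * x) -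
        (∑ j, (q j : ℝ)) / (2 * (1 - x)))) =
      ((((∑ j, (p j : ℝ)) + ∑ j, (p' j : ℝ)) / (2 * x) - (∑ j, (q j : ℝ)) / (1 - x))) *
        (bsc x p q * bsc x p' q) := by
    field_simp
    ring
  rw [e]
  push_cast
  ring

/-- shift of the first term of the loss generator -/
theorem lt_up_up {s : Ker n} {x : ℝ} (h0 : 0 < x) (h1 : x < 1) (p p' q : Conf n) (j : Fin n) :
    ((Real.sqrt ((p j : ℝ) + 1) * Real.sqrt ((p' j : ℝ) + 1) : ℝ) : ℂ) *
      lt x s (up p j) (up p' j) q =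
      ((x / (1 - x) * (((up q j) j : ℕ) : ℝ) : ℝ) : ℂ) * lt x s p p' (up q j) := by
  have h3 : (1 - x) ≠ 0 := by linarith
  have a1 := bsc_up (x := x) p q j
  have a2 := bsc_up (x := x) p' q j
  have c1 := bsc_up' (x := x) p q j
  have c2 := bsc_up' (x := x) p' q j
  have hxx : Real.sqrt x * Real.sqrt x = x := Real.mul_self_sqrt h0.le
  have hyy : Real.sqrt (1 - x) * Real.sqrt (1 - x) = 1 - x := Real.mul_self_sqrt (by linarith)
  have hqq : Real.sqrt ((q j : ℝ) + 1) * Real.sqrt ((q j : ℝ) + 1) = (q j : ℝ) + 1 :=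
    Real.mul_self_sqrt (by positivity)
  have key : Real.sqrt ((p j : ℝ) + 1) * Real.sqrt ((p' j : ℝ) + 1) *
      (bsc x (up p j) q * bsc x (up p' j) q) =
      x / (1 - x) * ((q j : ℝ) + 1) * (bsc x p (up q j) * bsc x p' (up q j)) := by
    have e1 : Real.sqrt ((p j : ℝ) + 1) * Real.sqrt ((p' j : ℝ) + 1) *
        (bsc x (up p j) q * bsc x (up p' j) q) =
        x * ((Real.sqrt ((p j : ℝ) + q j + 1) * bsc x p q) *
          (Real.sqrt ((p' j : ℝ) + q j + 1) * bsc x p' q)) := by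
      calc _ = (Real.sqrt ((p j : ℝ) + 1) * bsc x (up p j) q) *
            (Real.sqrt ((p' j : ℝ) + 1) * bsc x (up p' j) q) := by ring
        _ = (Real.sqrt x * Real.sqrt x) * ((Real.sqrt ((p j : ℝ) + q j + 1) * bsc x p q) *
          (Real.sqrt ((p' j : ℝ) + q j + 1) * bsc x p' q)) := by rw [a1, a2]; ring
        _ = _ := by rw [hxx]
    have e2 : ((q j : ℝ) + 1) * (bsc x p (up q j) * bsc x p' (up q j)) =
        (1 - x) * ((Real.sqrt ((p j : ℝ) + q j + 1) * bsc x p q) *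
          (Real.sqrt ((p' j : ℝ) + q j + 1) * bsc x p' q)) := by
      calc _ = (Real.sqrt ((q j : ℝ) + 1) * Real.sqrt ((q j : ℝ) + 1)) *
            (bsc x p (up q j) * bsc x p' (up q j)) := by rw [hqq]
        _ = (Real.sqrt ((q j : ℝ) + 1) * bsc x p (up q j)) *
            (Real.sqrt ((q j : ℝ) + 1) * bsc x p' (up q j)) := by ring
        _ = (Real.sqrt (1 - x) * Real.sqrt (1 - x)) *
            ((Real.sqrt ((p j : ℝ) + q j + 1) * bsc x p q) *
          (Real.sqrt ((p' j : ℝ) + q j + 1) * bsc x p' q)) := by rw [c1, c2]; ring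
        _ = _ := by rw [hyy]
    rw [e1, mul_assoc (x / (1 - x)), e2]
    field_simp
  unfold lt
  rw [← mul_assoc, ← Complex.ofReal_mul, key, up_same, up_add, up_add, add_up, add_up]
  push_cast
  ring

theorem tsum_shift {s : Ker n} {x : ℝ} (h0 : 0 < x) (h1 : x < 1) (p p' : Conf n) (j : Fin n) :
    ((Real.sqrt ((p j : ℝ) + 1) * Real.sqrt ((p' j : ℝ) + 1) : ℝ) : ℂ) *
      lossI x s (up p j) (up p' j) =
      ((x / (1 - x) : ℝ) : ℂ) * ∑' q, ((q j : ℝ) : ℂ) * lt x s p p' q := by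
  unfold lossI
  rw [← tsum_mul_left, ← tsum_mul_left]
  have hinj : Function.Injective (fun q : Conf n => up q j) := by
    intro a b hab
    have h : down (up a j) j = down (up b j) j := congrArg (fun z => down z j) hab
    rwa [gfx_down_up, gfx_down_up] at h
  rw [← hinj.tsum_eq (f := fun q : Conf n => ((x / (1 - x) : ℝ) : ℂ) *
    (((q j : ℝ) : ℂ) * lt x s p p' q))]
  · refine tsum_congr fun q => ?_
    rw [lt_up_up h0 h1]
    push_cast
    ring
  · intro q hq
    by_contra hq'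
    have hq0 : q j = 0 := by
      by_contra h0'
      exact hq' ⟨down q j, gfx_up_down h0'⟩
    apply hq
    simp [hq0]

theorem summable_mul_lt {s : Ker n} (hs : ∀ a b, ‖s a b‖ ≤ 1) {x : ℝ} (h0 : 0 < x) (h1 : x ≤ 1)
    (p p' : Conf n) (j : Fin n) : Summable fun q : Conf n => ((q j : ℝ) : ℂ) * lt x s p p' q := by
  refine Summable.of_norm_bounded (summable_mul_maj h0 h1 p p') fun q => ?_
  rw [norm_mul, Complex.norm_real, Real.norm_of_nonneg (Nat.cast_nonneg _)]
  refine mul_le_mul ?_ (norm_lt_le hs h0 le_rfl h1 p p' q) (norm_nonneg _)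
    (Finset.sum_nonneg fun _ _ => Nat.cast_nonneg _)
  exact Finset.single_le_sum (f := fun i => ((q i : ℕ) : ℝ)) (fun _ _ => Nat.cast_nonneg _)
    (Finset.mem_univ j)

/-- the loss channel in the transmissivity -/
theorem hasDerivAt_lossI {s : Ker n} (hs : ∀ a b, ‖s a b‖ ≤ 1) {x : ℝ} (h0 : 0 < x) (h1 : x < 1)
    (p p' : Conf n) :
    HasDerivAt (fun x => lossI x s p p') (∑ j, ((-(1 / x) : ℝ) : ℂ) * genLj (lossI x s) j p p') x := by
  set lo : ℝ := x / 2 with hlo
  set hi : ℝ := (1 + x) / 2 with hhi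
  have l0 : 0 < lo := by positivity
  have hi1 : hi < 1 := by rw [hhi]; linarith
  set A : ℝ := ((∑ j, (p j : ℝ)) + ∑ j, (p' j : ℝ)) / (2 * lo) with hA
  have hA0 : 0 ≤ A := by
    rw [hA]
    positivity
  set B : ℝ := 1 / (1 - hi) with hB
  have hB0 : 0 ≤ B := by
    rw [hB]
    have : 0 < 1 - hi := by linarith
    positivity
  have hder := hasDerivAt_tsum_of_isPreconnected (𝕜 := ℝ) (F := ℂ) (α := Conf n)
    (g := fun q y => lt y s p p' q)
    (g' := fun q y => (((((∑ j, (p j : ℝ)) + ∑ j, (p' j : ℝ)) / (2 * y) -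
      (∑ j, (q j : ℝ)) / (1 - y) : ℝ) : ℂ) * lt y s p p' q))
    (u := fun q => A * maj lo p p' q + B * ((∑ j, (q j : ℝ)) * maj lo p p' q))
    (t := Ioo lo hi) (y₀ := x) (y := x)
    (((summable_maj l0 (by rw [hlo]; linarith) p p').mul_left A).add
      ((summable_mul_maj l0 (by rw [hlo]; linarith) p p').mul_left B))
    isOpen_Ioo isPreconnected_Ioo
    (fun q y hy => hasDerivAt_lt (l0.trans hy.1) (hy.2.trans hi1) p p' q)
    (fun q y hy => by
      have y0 : 0 < y := l0.trans hy.1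
      have y1 : y < 1 := hy.2.trans hi1
      have q0 : 0 ≤ ∑ j, (q j : ℝ) := Finset.sum_nonneg fun _ _ => Nat.cast_nonneg _
      have p0 : 0 ≤ (∑ j, (p j : ℝ)) + ∑ j, (p' j : ℝ) := by positivity
      rw [norm_mul, Complex.norm_real, Real.norm_eq_abs]
      have h3 := norm_lt_le hs l0 hy.1.le y1.le p p' q
      have h4 : |((∑ j, (p j : ℝ)) + ∑ j, (p' j : ℝ)) / (2 * y) - (∑ j, (q j : ℝ)) / (1 - y)| ≤
          A + B * ∑ j, (q j : ℝ) := by
        refine (abs_sub _ _).trans ?_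
        rw [abs_of_nonneg (div_nonneg p0 (by linarith)), abs_of_nonneg (div_nonneg q0 (by linarith))]
        refine add_le_add ?_ ?_
        · exact div_le_div_of_nonneg_left p0 (by linarith) (by linarith [hy.1])
        · rw [hB, one_div_mul_eq_div]
          exact div_le_div_of_nonneg_left q0 (by linarith) (by linarith [hy.2])
      calc _ ≤ (A + B * ∑ j, (q j : ℝ)) * maj lo p p' q :=
            mul_le_mul h4 h3 (norm_nonneg _) (by positivity)
        _ = _ := by ring)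
    ⟨by rw [hlo]; linarith, by rw [hhi]; linarith⟩ (summable_lt hs h0 h1.le p p')
    ⟨by rw [hlo]; linarith, by rw [hhi]; linarith⟩
  refine hder.congr_deriv ?_
  have hS := summable_lt hs h0 h1.le p p'
  have hSj := fun j => summable_mul_lt hs h0 h1.le p p' j
  have h3 : (1 - x) ≠ 0 := by linarith
  have e1 : ∑' q : Conf n, ((((((∑ j, (p j : ℝ)) + ∑ j, (p' j : ℝ)) / (2 * x) -
      (∑ j, (q j : ℝ)) / (1 - x) : ℝ) : ℂ) * lt x s p p' q)) =
      ((((∑ j, (p j : ℝ)) + ∑ j, (p' j : ℝ)) / (2 * x) : ℝ) : ℂ) * lossI x s p p' -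
        ((1 / (1 - x) : ℝ) : ℂ) * ∑ j, ∑' q : Conf n, ((q j : ℝ) : ℂ) * lt x s p p' q := by
    rw [lossI, ← Summable.tsum_finsetSum fun j _ => hSj j, ← tsum_mul_left, ← tsum_mul_left,
      ← Summable.tsum_sub (hS.mul_left _) ((summable_sum fun j _ => hSj j).mul_left _)]
    refine tsum_congr fun q => ?_
    rw [← Finset.sum_mul]
    push_cast
    ring
  rw [e1]
  have e2 : ∀ j : Fin n, ((-(1 / x) : ℝ) : ℂ) * genLj (lossI x s) j p p' =
      ((((p j : ℝ) + (p' j : ℝ)) / (2 * x) : ℝ) : ℂ) * lossI x s p p' -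
        ((1 / (1 - x) : ℝ) : ℂ) * ∑' q : Conf n, ((q j : ℝ) : ℂ) * lt x s p p' q := by
    intro j
    unfold genLj
    rw [tsum_shift h0 h1]
    have hx : (x : ℂ) ≠ 0 := by exact_mod_cast h0.ne'
    have h3' : (1 - (x : ℂ)) ≠ 0 := by exact_mod_cast h3
    push_cast
    field_simp
    ring
  rw [Finset.sum_congr rfl fun j _ => e2 j, Finset.sum_sub_distrib, ← Finset.sum_mul,
    ← Finset.mul_sum]
  congr 2
  rw [← Complex.ofReal_sum]
  congr 1
  rw [← Finset.sum_div, Finset.sum_add_distrib]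

end

end Vale.Agent.P369O
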