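import Vale.Agent.P369.H624.Ou1

/-!
P369 (helper624): positivity of the loss channel and faithfulness of the amplifier on the kernels of
arbitrary states.
-/

namespace Vale.Agent.P369O

open Matrix MeasureTheory Set Filter
open Vale.Agent.P369 (Conf up down)
open Vale.Agent.P369A
open Vale.Agent.P369F
open Vale.Agent.P369L (bsc b1 lossI lt bsc_nonneg bsc_le_one bsc_up bsc_up' up_add add_up bsc_down)
open Vale.Agent.P369W (ccV ampV)
open scoped ComplexOrder Topology Classical

noncomputable section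

variable {n : ℕ}

/-- one term of the quadratic form of the loss channel -/
theorem lt_term_psd {s : Ker n} (hs : ∀ X, (cut X s).PosSemidef) (x : ℝ) (X : ℕ) (q : Conf n) :
    (Matrix.of fun a b : Ct n X => lt x s a.1 b.1 q).PosSemidef := by
  set Y := X + ∑ j, q j with hY
  let φ : Ct n X → Ct n Y := fun a => ⟨a.1 + q, by
    simp only [Pi.add_apply, Finset.sum_add_distrib]
    have := a.2
    omega⟩
  have h1 := ((hs Y).submatrix φ).mul_mul_conjTranspose_same
    (Matrix.diagonal fun a : Ct n X => ((bsc x a.1 q : ℝ) : ℂ))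
  have e : (Matrix.of fun a b : Ct n X => lt x s a.1 b.1 q) =
      (Matrix.diagonal fun a : Ct n X => ((bsc x a.1 q : ℝ) : ℂ)) *
        (cut Y s).submatrix φ φ * (Matrix.diagonal fun a : Ct n X => ((bsc x a.1 q : ℝ) : ℂ))ᴴ := by
    ext a b
    rw [Matrix.diagonal_conjTranspose, Matrix.mul_diagonal, Matrix.diagonal_mul]
    simp only [Matrix.of_apply, lt, Matrix.submatrix_apply, cut, φ, Pi.star_apply,
      Complex.star_def, Complex.conj_ofReal]
    push_cast
    ring
  rw [e]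
  exact h1

theorem lossI_psd {s : Ker n} (hs : ∀ X, (cut X s).PosSemidef) (hb : ∀ a b, ‖s a b‖ ≤ 1) {x : ℝ}
    (h0 : 0 < x) (h1 : x ≤ 1) (X : ℕ) : (cut X (lossI x s)).PosSemidef := by
  have hH : ∀ a b : Conf n, star (lossI x s b a) = lossI x s a b := by
    intro a b
    unfold lossI
    rw [tsum_star]
    refine tsum_congr fun q => ?_
    unfold lt
    rw [star_mul', herm_of_psd hs, Complex.star_def, Complex.conj_ofReal, mul_comm (bsc x b q)]
  refine Matrix.PosSemidef.of_dotProduct_mulVec_nonneg (herm_cut hH X) fun v => ?_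
  have e : star v ⬝ᵥ (cut X (lossI x s) *ᵥ v) =
      ∑ a, ∑ b, star (v a) * (lossI x s a.1 b.1) * v b := by
    simp only [dotProduct, Matrix.mulVec, Pi.star_apply, Finset.mul_sum, cut]
    refine Finset.sum_congr rfl fun a _ => Finset.sum_congr rfl fun b _ => ?_
    ring
  have hsum : HasSum (fun q => ∑ a, ∑ b, star (v a) * (lt x s a.1 b.1 q) * v b)
      (∑ a, ∑ b, star (v a) * (lossI x s a.1 b.1) * v b) :=
    hasSum_sum fun a _ => hasSum_sum fun b _ =>
      (((summable_lt hb h0 h1 a.1 b.1).hasSum).mul_left (star (v a))).mul_right (v b)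
  rw [e]
  refine hsum.nonneg fun q => ?_
  have h2 := (lt_term_psd hs x X q).dotProduct_mulVec_nonneg v
  have e2 : star v ⬝ᵥ ((Matrix.of fun a b : Ct n X => lt x s a.1 b.1 q) *ᵥ v) =
      ∑ a, ∑ b, star (v a) * (lt x s a.1 b.1 q) * v b := by
    simp only [dotProduct, Matrix.mulVec, Pi.star_apply, Finset.mul_sum, Matrix.of_apply]
    refine Finset.sum_congr rfl fun a _ => Finset.sum_congr rfl fun b _ => ?_
    ring
  rw [e2] at h2
  exact h2

/-! ### the amplifier -/

/-- one term of the amplifier -/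
def at' (k : Fin n → ℝ) (s : Ker n) (l x y : Conf n) : ℂ :=
  if l ≤ x ∧ l ≤ y then ((ccV k (x - l) l * ccV k (y - l) l : ℝ) : ℂ) * s (x - l) (y - l) else 0

theorem ampV_eq_sum (k : Fin n → ℝ) (s : Ker n) (X : ℕ) (x y : Ct n X) :
    ampV k s x.1 y.1 = ∑ l : Ct n X, at' k s l.1 x.1 y.1 := by
  have h1 : ∑ l : Ct n X, at' k s l.1 x.1 y.1 = ∑ l ∈ ctF n X, at' k s l x.1 y.1 :=
    (sum_ctF X fun l => at' k s l x.1 y.1).symm
  rw [h1]
  unfold ampV
  have hsub : Finset.Iic (x.1 ⊓ y.1) ⊆ ctF n X := by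
    intro l hl
    have h3 := le_inf_iff.1 (Finset.mem_Iic.1 hl)
    rw [mem_ctF]
    exact (Finset.sum_le_sum fun j _ => h3.1 j).trans x.2
  rw [← Finset.sum_subset hsub]
  · refine Finset.sum_congr rfl fun l hl => ?_
    have h3 := le_inf_iff.1 (Finset.mem_Iic.1 hl)
    rw [at', if_pos h3]
  · intro l _ hl
    rw [at', if_neg]
    intro h
    exact hl (Finset.mem_Iic.2 (le_inf h.1 h.2))

theorem at_term_psd {s : Ker n} (hs : ∀ X, (cut X s).PosSemidef) (k : Fin n → ℝ) (X : ℕ)
    (l : Conf n) : (Matrix.of fun x y : Ct n X => at' k s l x.1 y.1).PosSemidef := by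
  let φ : Ct n X → Ct n X := fun a => ⟨a.1 - l, by
    refine le_trans (Finset.sum_le_sum fun j _ => ?_) a.2
    exact Nat.sub_le _ _⟩
  let d : Ct n X → ℂ := fun a => if l ≤ a.1 then ((ccV k (a.1 - l) l : ℝ) : ℂ) else 0
  have h1 := ((hs X).submatrix φ).mul_mul_conjTranspose_same (Matrix.diagonal d)
  have e : (Matrix.of fun x y : Ct n X => at' k s l x.1 y.1) =
      (Matrix.diagonal d) * (cut X s).submatrix φ φ * (Matrix.diagonal d)ᴴ := by
    ext a b
    rw [Matrix.diagonal_conjTranspose, Matrix.mul_diagonal, Matrix.diagonal_mul]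
    simp only [Matrix.of_apply, at', Matrix.submatrix_apply, cut, φ, Pi.star_apply, d]
    by_cases ha : l ≤ a.1
    · by_cases hb : l ≤ b.1
      · rw [if_pos ⟨ha, hb⟩, if_pos ha, if_pos hb, Complex.star_def, Complex.conj_ofReal]
        push_cast
        ring
      · rw [if_neg (fun h => hb h.2), if_neg hb, star_zero, mul_zero]
    · rw [if_neg (fun h => ha h.1), if_neg ha, zero_mul, zero_mul]
  rw [e]
  exact h1

theorem ampV_cut_eq (k : Fin n → ℝ) (s : Ker n) (X : ℕ) :
    cut X (ampV k s) = ∑ l : Ct n X, Matrix.of fun x y : Ct n X => at' k s l.1 x.1 y.1 := by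
  ext x y
  rw [Matrix.sum_apply]
  exact ampV_eq_sum k s X x y

theorem ampV_psd {s : Ker n} (hs : ∀ X, (cut X s).PosSemidef) (k : Fin n → ℝ) (X : ℕ) :
    (cut X (ampV k s)).PosSemidef := by
  rw [ampV_cut_eq]
  exact Matrix.posSemidef_sum _ fun l _ => at_term_psd hs k X l.1

/-- the amplifier output is faithful as soon as the vacuum component of the input is positive -/
theorem ampV_posDef {s : Ker n} (hs : ∀ X, (cut X s).PosSemidef) {k : Fin n → ℝ}
    (hk : ∀ j, 1 < k j) (h00 : 0 < (s 0 0).re) (X : ℕ) : (cut X (ampV k s)).PosDef := by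
  refine Matrix.PosDef.of_dotProduct_mulVec_pos (ampV_psd hs k X).isHermitian fun v hv => ?_
  -- a component of maximal total
  obtain ⟨x0, hx0, hmax⟩ : ∃ x0 : Ct n X, v x0 ≠ 0 ∧
      ∀ y : Ct n X, v y ≠ 0 → ∑ j, y.1 j ≤ ∑ j, x0.1 j := by
    obtain ⟨z, hz⟩ := Function.ne_iff.1 hv
    have hne : (Finset.univ.filter fun x : Ct n X => v x ≠ 0).Nonempty :=
      ⟨z, Finset.mem_filter.2 ⟨Finset.mem_univ _, hz⟩⟩
    obtain ⟨x0, h1, h2⟩ := Finset.exists_max_image _ (fun x : Ct n X => ∑ j, x.1 j) hne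
    refine ⟨x0, (Finset.mem_filter.1 h1).2, fun y hy => ?_⟩
    exact h2 y (Finset.mem_filter.2 ⟨Finset.mem_univ _, hy⟩)
  rw [ampV_cut_eq, Matrix.sum_mulVec, dotProduct_sum]
  refine Finset.sum_pos' (fun l _ => (at_term_psd hs k X l.1).dotProduct_mulVec_nonneg v)
    ⟨x0, Finset.mem_univ _, ?_⟩
  have key : ∀ y : Ct n X, v y ≠ 0 → x0.1 ≤ y.1 → y = x0 := by
    intro y hy hle
    have h1 := hmax y hy
    refine Subtype.ext ?_
    by_contra hne
    have h2 : ∃ j, x0.1 j < y.1 j := by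
      by_contra hcon
      push Not at hcon
      exact hne (le_antisymm (fun j => hcon j) hle)
    obtain ⟨j, hj⟩ := h2
    have h3 : ∑ j, x0.1 j < ∑ j, y.1 j :=
      Finset.sum_lt_sum (fun i _ => hle i) ⟨j, Finset.mem_univ _, hj⟩
    omega
  have e : star v ⬝ᵥ ((Matrix.of fun x y : Ct n X => at' k s x0.1 x.1 y.1) *ᵥ v) =
      star (v x0) * (((ccV k 0 x0.1 * ccV k 0 x0.1 : ℝ) : ℂ) * s 0 0) * v x0 := by
    simp only [dotProduct, Matrix.mulVec, Pi.star_apply, Matrix.of_apply]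
    rw [Finset.sum_eq_single x0]
    · rw [Finset.sum_eq_single x0]
      · rw [at', if_pos ⟨le_rfl, le_rfl⟩, tsub_self]
        ring
      · intro b _ hb
        by_cases hvb : v b = 0
        · rw [hvb, mul_zero]
        · rw [at', if_neg, zero_mul]
          intro h
          exact hb (key b hvb h.2)
      · intro h; exact absurd (Finset.mem_univ _) h
    · intro a _ ha
      by_cases hva : v a = 0
      · rw [hva, star_zero, zero_mul]
      · rw [Finset.sum_eq_zero, mul_zero]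
        intro b _
        rw [at', if_neg, zero_mul]
        intro h
        exact ha (key a hva h.1)
    · intro h; exact absurd (Finset.mem_univ _) h
  rw [e]
  have h1 := P369W.ccV_zero_pos hk x0.1
  have hs0 : s 0 0 = (((s 0 0).re : ℝ) : ℂ) := by
    refine Complex.ext ?_ ?_
    · simp
    · simp [diag_im_of_psd hs 0]
  have hv0 : star (v x0) * v x0 = ((‖v x0‖ ^ 2 : ℝ) : ℂ) := by
    rw [mul_comm, Complex.star_def, Complex.mul_conj, Complex.normSq_eq_norm_sq]
  have e3 : star (v x0) * (((ccV k 0 x0.1 * ccV k 0 x0.1 : ℝ) : ℂ) * s 0 0) * v x0 =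
      ((‖v x0‖ ^ 2 * (ccV k 0 x0.1 * ccV k 0 x0.1 * (s 0 0).re) : ℝ) : ℂ) := by
    have : star (v x0) * (((ccV k 0 x0.1 * ccV k 0 x0.1 : ℝ) : ℂ) * s 0 0) * v x0 =
        (star (v x0) * v x0) * (((ccV k 0 x0.1 * ccV k 0 x0.1 : ℝ) : ℂ) * s 0 0) := by ring
    rw [this, hv0, hs0]
    push_cast
    simp
  rw [e3]
  have h4 : 0 < ‖v x0‖ := norm_pos_iff.2 hx0
  have : (0 : ℝ) < ‖v x0‖ ^ 2 * (ccV k 0 x0.1 * ccV k 0 x0.1 * (s 0 0).re) := by positivity
  exact_mod_cast this

end

end Vale.Agent.P369O
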