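import Vale.Agent.P369.H624.Ou2

/-!
P369 (helper624): trace and energies of the loss channel and of the amplifier on the kernels of
arbitrary states; the faithful path `t ↦ amp (k t) (loss (x t) s)`.
-/

namespace Vale.Agent.P369O

open Matrix MeasureTheory Set Filter
open Vale.Agent.P369 (Conf up down)
open Vale.Agent.P369A
open Vale.Agent.P369F
open Vale.Agent.P369L (bsc b1 lossI lt bsc_nonneg bsc_le_one bsc_up bsc_up' up_add add_up bsc_down
  sum_bsc_sq)
open Vale.Agent.P369W (ccV ampV hasSum_ccV_sq hasSum_mul_ccV_sq_j)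
open scoped ComplexOrder Topology Classical

noncomputable section

variable {n : ℕ}

/-! ### sums over pairs -/

theorem hasSum_pair_of_fiber {F : Conf n × Conf n → ℝ} (h0 : ∀ p, 0 ≤ F p) {a : ℝ}
    (h : HasSum (fun m : Conf n => ∑ l ∈ Finset.Iic m, F (m - l, l)) a) : HasSum F a := by
  have hfib : ∀ x : Conf n, HasSum (fun p : {p : Conf n × Conf n // p.1 + p.2 = x} => F p.1)
      (∑ l ∈ Finset.Iic x, F (x - l, l)) := by
    intro x
    let e : {l : Conf n // l ∈ Finset.Iic x} ≃ {p : Conf n × Conf n // p.1 + p.2 = x} :=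
      { toFun := fun l => ⟨(x - l.1, l.1), tsub_add_cancel_of_le (Finset.mem_Iic.1 l.2)⟩
        invFun := fun p => ⟨p.1.2, Finset.mem_Iic.2 (le_of_le_of_eq le_add_self p.2)⟩
        left_inv := fun l => rfl
        right_inv := fun p => by
          obtain ⟨⟨m, l⟩, hp⟩ := p
          simp only at hp
          subst hp
          simp only [add_tsub_cancel_right] }
    rw [← e.hasSum_iff]
    have h2 := hasSum_fintype fun l : {l : Conf n // l ∈ Finset.Iic x} => F (x - l.1, l.1)
    rw [Finset.univ_eq_attach, Finset.sum_attach (Finset.Iic x) fun l => F (x - l, l)] at h2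
    exact h2
  rw [← (Equiv.sigmaFiberEquiv fun p : Conf n × Conf n => p.1 + p.2).hasSum_iff]
  have hs : Summable (F ∘ (Equiv.sigmaFiberEquiv fun p : Conf n × Conf n => p.1 + p.2)) := by
    refine (summable_sigma_of_nonneg
      (f := F ∘ (Equiv.sigmaFiberEquiv fun p : Conf n × Conf n => p.1 + p.2)) fun p => h0 _).2
      ⟨fun x => (hfib x).summable, ?_⟩
    refine h.summable.congr fun x => ?_
    exact (hfib x).tsum_eq.symm
  exact h.sigma_of_hasSum hfib hs

theorem hasSum_pair_of_snd {F : Conf n × Conf n → ℝ} (h0 : ∀ p, 0 ≤ F p) {g : Conf n → ℝ} {a : ℝ}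
    (hg : ∀ m, HasSum (fun l => F (m, l)) (g m)) (h : HasSum g a) : HasSum F a := by
  have hs : Summable F := by
    rw [summable_prod_of_nonneg h0]
    refine ⟨fun x => (hg x).summable, ?_⟩
    refine h.summable.congr fun x => ?_
    exact (hg x).tsum_eq.symm
  have h2 := hs.hasSum.prod_fiberwise hg
  rw [h.unique h2]
  exact hs.hasSum

/-! ### the loss channel -/

theorem lossI_diag_hasSum {s : Ker n} (hs : ∀ a b, ‖s a b‖ ≤ 1) {x : ℝ} (h0 : 0 < x) (h1 : x ≤ 1)
    (p : Conf n) : HasSum (fun q => bsc x p q ^ 2 * (s (p + q) (p + q)).re)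
      (lossI x s p p).re := by
  have h2 := Complex.hasSum_re (summable_lt hs h0 h1 p p).hasSum
  refine h2.congr_fun fun q => ?_
  unfold lt
  rw [Complex.re_ofReal_mul]
  ring

theorem sum_mul_bsc_sq {x : ℝ} (h0 : 0 ≤ x) (h1 : x ≤ 1) (m : Conf n) (j : Fin n) :
    ∑ l ∈ Finset.Iic m, (((m - l) j : ℕ) : ℝ) * bsc x (m - l) l ^ 2 = x * m j := by
  by_cases hm : m j = 0
  · rw [hm, Nat.cast_zero, mul_zero]
    refine Finset.sum_eq_zero fun l _ => ?_
    rw [Pi.sub_apply, hm, Nat.zero_sub, Nat.cast_zero, zero_mul]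
  · set m' := down m j with hm'
    have hmm : up m' j = m := gfx_up_down hm
    have hsub : Finset.Iic m' ⊆ Finset.Iic m := by
      intro l hl
      rw [Finset.mem_Iic] at hl ⊢
      rw [← hmm]
      exact hl.trans (le_up_self m' j)
    rw [← Finset.sum_subset hsub]
    · have h2 : ∀ l ∈ Finset.Iic m', (((m - l) j : ℕ) : ℝ) * bsc x (m - l) l ^ 2 =
          x * m j * bsc x (m' - l) l ^ 2 := by
        intro l hl
        have hl' : l ≤ m' := Finset.mem_Iic.1 hl
        have e1 : m - l = up (m' - l) j := by rw [← hmm, up_sub_of_le hl']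
        rw [e1, up_same]
        have h3 := bsc_up (x := x) (m' - l) l j
        have h4 : (((m' - l) j : ℕ) : ℝ) + l j + 1 = m j := by
          have h5 : (m' - l) j + l j = m' j := by
            rw [Pi.sub_apply]
            exact Nat.sub_add_cancel (hl' j)
          have h6 : m' j + 1 = m j := by rw [← hmm, up_same]
          have h7 : (m' - l) j + l j + 1 = m j := by rw [h5, h6]
          exact_mod_cast h7
        rw [h4] at h3
        have h8 : Real.sqrt (((m' - l) j : ℕ) + 1) ^ 2 = ((m' - l) j : ℕ) + 1 :=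
          Real.sq_sqrt (by positivity)
        have h9 : Real.sqrt (m j : ℝ) ^ 2 = m j := Real.sq_sqrt (Nat.cast_nonneg _)
        have h10 : Real.sqrt x ^ 2 = x := Real.sq_sqrt h0
        push_cast
        calc ((((m' - l) j : ℕ) : ℝ) + 1) * bsc x (up (m' - l) j) l ^ 2 =
              (Real.sqrt (((m' - l) j : ℕ) + 1) * bsc x (up (m' - l) j) l) ^ 2 := by
              rw [mul_pow, h8]
          _ = (Real.sqrt x * (Real.sqrt (m j : ℝ) * bsc x (m' - l) l)) ^ 2 := by rw [h3]
          _ = _ := by rw [mul_pow, mul_pow, h9, h10]; ring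
      rw [Finset.sum_congr rfl h2, ← Finset.mul_sum, sum_bsc_sq h0 h1, mul_one]
    · intro l hl hl'
      rw [Finset.mem_Iic] at hl hl'
      have h3 : m j = l j := by
        by_contra hne
        apply hl'
        intro i
        by_cases hi : i = j
        · have h4 : l j ≤ m j := hl j
          have h5 : m' j + 1 = m j := by rw [← hmm, up_same]
          have h6 : l j ≤ m' j := by
            have h7 : ¬ l j = m j := fun h => hne h.symm
            omega
          rw [hi]
          exact h6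
        · have h4 := hl i
          rw [hm', down_ne _ hi]
          exact h4
      rw [Pi.sub_apply, h3, Nat.sub_self, Nat.cast_zero, zero_mul]

theorem lossI_tr {s : Ker n} (h : StK s) {x : ℝ} (h0 : 0 < x) (h1 : x ≤ 1) :
    HasSum (fun p => (lossI x s p p).re) 1 := by
  have hF : HasSum (fun pq : Conf n × Conf n => bsc x pq.1 pq.2 ^ 2 *
      (s (pq.1 + pq.2) (pq.1 + pq.2)).re) 1 := by
    refine hasSum_pair_of_fiber (fun p => mul_nonneg (sq_nonneg _) (diag_nonneg_of_cut h.psd _)) ?_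
    refine h.tr.congr_fun fun m => ?_
    have e : ∀ l ∈ Finset.Iic m, bsc x (m - l) l ^ 2 * (s (m - l + l) (m - l + l)).re =
        bsc x (m - l) l ^ 2 * (s m m).re := by
      intro l hl
      rw [tsub_add_cancel_of_le (Finset.mem_Iic.1 hl)]
    rw [Finset.sum_congr rfl e, ← Finset.sum_mul, sum_bsc_sq h0.le h1, one_mul]
  exact hF.prod_fiberwise fun p => lossI_diag_hasSum h.norm_le h0 h1 p

theorem lossI_en {s : Ker n} (h : StK s) {x : ℝ} (h0 : 0 < x) (h1 : x ≤ 1) {j : Fin n} {e : ℝ}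
    (he : HasSum (fun m : Conf n => (m j : ℝ) * (s m m).re) e) :
    HasSum (fun p : Conf n => (p j : ℝ) * (lossI x s p p).re) (x * e) := by
  have hF : HasSum (fun pq : Conf n × Conf n => (pq.1 j : ℝ) * (bsc x pq.1 pq.2 ^ 2 *
      (s (pq.1 + pq.2) (pq.1 + pq.2)).re)) (x * e) := by
    refine hasSum_pair_of_fiber (fun p => mul_nonneg (Nat.cast_nonneg _)
      (mul_nonneg (sq_nonneg _) (diag_nonneg_of_cut h.psd _))) ?_
    refine (he.mul_left x).congr_fun fun m => ?_
    have e : ∀ l ∈ Finset.Iic m, (((m - l) j : ℕ) : ℝ) * (bsc x (m - l) l ^ 2 *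
        (s (m - l + l) (m - l + l)).re) =
        (((m - l) j : ℕ) : ℝ) * bsc x (m - l) l ^ 2 * (s m m).re := by
      intro l hl
      rw [tsub_add_cancel_of_le (Finset.mem_Iic.1 hl)]
      ring
    rw [Finset.sum_congr rfl e, ← Finset.sum_mul, sum_mul_bsc_sq h0.le h1]
    ring
  exact hF.prod_fiberwise fun p => (lossI_diag_hasSum h.norm_le h0 h1 p).mul_left _

theorem lossI_stK {s : Ker n} (h : StK s) {x : ℝ} (h0 : 0 < x) (h1 : x ≤ 1) : StK (lossI x s) :=
  ⟨lossI_psd h.psd h.norm_le h0 h1, lossI_tr h h0 h1⟩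

/-- the vacuum component after loss is positive -/
theorem lossI_zero_pos {s : Ker n} (h : StK s) {x : ℝ} (h0 : 0 < x) (h1 : x < 1) :
    0 < (lossI x s 0 0).re := by
  have h2 := lossI_diag_hasSum h.norm_le h0 h1.le 0
  obtain ⟨m, hm⟩ : ∃ m : Conf n, 0 < (s m m).re := by
    by_contra hcon
    push Not at hcon
    have h3 : ∀ m, (s m m).re = 0 := fun m => le_antisymm (hcon m) (diag_nonneg_of_cut h.psd m)
    have h4 := h.tr
    simp only [h3] at h4
    exact zero_ne_one (hasSum_zero.unique h4)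
  have h5 : 0 < bsc x 0 m := by
    unfold bsc
    refine Finset.prod_pos fun j _ => ?_
    unfold b1
    have : 0 < 1 - x := by linarith
    have h6 : 0 < (((0 : Conf n) j + m j).choose (m j) : ℕ) :=
      Nat.choose_pos (by simp)
    have h7 : (0 : ℝ) < (((0 : Conf n) j + m j).choose (m j) : ℕ) := by exact_mod_cast h6
    positivity
  refine h2.summable.tsum_pos (fun q => mul_nonneg (sq_nonneg _) (diag_nonneg_of_cut h.psd _)) m ?_
    |>.trans_eq h2.tsum_eq
  rw [zero_add]
  positivity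

/-! ### the amplifier -/

theorem ampV_diag {k : Fin n → ℝ} (s : Ker n) (x : Conf n) :
    (ampV k s x x).re = ∑ l ∈ Finset.Iic x, (s (x - l) (x - l)).re * ccV k (x - l) l ^ 2 := by
  unfold ampV
  rw [inf_idem, Complex.re_sum]
  refine Finset.sum_congr rfl fun l _ => ?_
  rw [Complex.re_ofReal_mul]
  ring

theorem ampV_tr {s : Ker n} (h : StK s) {k : Fin n → ℝ} (hk : ∀ j, 1 ≤ k j) :
    HasSum (fun x => (ampV k s x x).re) 1 := by
  have h1 : HasSum (fun p : Conf n × Conf n => (s p.1 p.1).re * ccV k p.1 p.2 ^ 2) 1 := by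
    refine hasSum_pair_of_snd (fun p => mul_nonneg (diag_nonneg_of_cut h.psd _) (sq_nonneg _))
      (g := fun m => (s m m).re * 1) (fun m => (hasSum_ccV_sq hk m).mul_left _) ?_
    simpa using h.tr
  refine (hasSum_fiber h1).congr_fun fun x => ampV_diag s x

theorem ampV_en {s : Ker n} (h : StK s) {k : Fin n → ℝ} (hk : ∀ j, 1 ≤ k j) {i : Fin n} {e : ℝ}
    (he : HasSum (fun m : Conf n => (m i : ℝ) * (s m m).re) e) :
    HasSum (fun x : Conf n => (x i : ℝ) * (ampV k s x x).re) (k i * e + (k i - 1)) := by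
  have hpos : ∀ p : Conf n × Conf n, 0 ≤ (s p.1 p.1).re *
      ((p.1 i : ℝ) * ccV k p.1 p.2 ^ 2 + (p.2 i : ℝ) * ccV k p.1 p.2 ^ 2) := fun p =>
    mul_nonneg (diag_nonneg_of_cut h.psd _) (add_nonneg
      (mul_nonneg (Nat.cast_nonneg _) (sq_nonneg _))
      (mul_nonneg (Nat.cast_nonneg _) (sq_nonneg _)))
  have hg : ∀ m : Conf n, HasSum (fun l : Conf n => (s m m).re *
      ((m i : ℝ) * ccV k m l ^ 2 + (l i : ℝ) * ccV k m l ^ 2))
      ((s m m).re * ((m i : ℝ) * 1 + (k i - 1) * ((m i : ℝ) + 1))) := fun m =>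
    (((hasSum_ccV_sq hk m).mul_left _).add (hasSum_mul_ccV_sq_j hk m i)).mul_left _
  have hs' : HasSum (fun m : Conf n => (s m m).re * ((m i : ℝ) * 1 + (k i - 1) * ((m i : ℝ) + 1)))
      (k i * e + (k i - 1)) := by
    have h2 := (he.mul_left (k i)).add (h.tr.mul_left (k i - 1))
    rw [mul_one] at h2
    refine h2.congr_fun fun m => ?_
    ring
  have h1 : HasSum (fun p : Conf n × Conf n => (s p.1 p.1).re *
      ((p.1 i : ℝ) * ccV k p.1 p.2 ^ 2 + (p.2 i : ℝ) * ccV k p.1 p.2 ^ 2))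
      (k i * e + (k i - 1)) :=
    hasSum_pair_of_snd (F := fun p : Conf n × Conf n => (s p.1 p.1).re *
      ((p.1 i : ℝ) * ccV k p.1 p.2 ^ 2 + (p.2 i : ℝ) * ccV k p.1 p.2 ^ 2)) hpos hg hs'
  refine (hasSum_fiber h1).congr_fun fun x => ?_
  rw [ampV_diag, Finset.mul_sum]
  refine Finset.sum_congr rfl fun l hl => ?_
  have hl' : l ≤ x := Finset.mem_Iic.1 hl
  have e2 : (x i : ℝ) = (((x - l) i : ℕ) : ℝ) + (l i : ℝ) := by
    rw [Pi.sub_apply, Nat.cast_sub (hl' i)]
    ring
  rw [e2]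
  ring

theorem ampV_stK {s : Ker n} (h : StK s) {k : Fin n → ℝ} (hk : ∀ j, 1 ≤ k j) : StK (ampV k s) :=
  ⟨ampV_psd h.psd k, ampV_tr h hk⟩

/-! ### amplifier after loss -/

/-- amplifier of gain `k` after loss of transmissivity `x` -/
def AL (k x : ℝ) (s : Ker n) : Ker n := ampV (fun _ => k) (lossI x s)

theorem AL_stK {s : Ker n} (h : StK s) {k x : ℝ} (hk : 1 ≤ k) (h0 : 0 < x) (h1 : x ≤ 1) :
    StK (AL k x s) := ampV_stK (lossI_stK h h0 h1) fun _ => hk

theorem AL_en {s : Ker n} (h : StK s) {k x : ℝ} (hk : 1 ≤ k) (h0 : 0 < x) (h1 : x ≤ 1) {i : Fin n}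
    {e : ℝ} (he : HasSum (fun m : Conf n => (m i : ℝ) * (s m m).re) e) :
    HasSum (fun p : Conf n => (p i : ℝ) * (AL k x s p p).re) (k * (x * e) + (k - 1)) :=
  ampV_en (lossI_stK h h0 h1) (fun _ => hk) (lossI_en h h0 h1 he)

theorem AL_reg {s : Ker n} (h : StK s) {k x : ℝ} (hk : 1 < k) (h0 : 0 < x) (h1 : x < 1)
    {e : Fin n → ℝ} (he : ∀ i, HasSum (fun m : Conf n => (m i : ℝ) * (s m m).re) (e i)) :
    Reg (AL k x s) (∑ i, (k * (x * e i) + (k - 1))) := by
  have hL := lossI_stK h h0 h1.le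
  have hA := AL_stK h hk.le h0 h1.le
  have hp : ∀ X, (cut X (AL k x s)).PosDef :=
    ampV_posDef hL.psd (fun _ => hk) (lossI_zero_pos h h0 h1)
  have ht : Tendsto (fun X => ∑ y : Ct n X, (AL k x s y.1 y.1).re) atTop (𝓝 1) :=
    tendsto_sum_Ct (g := fun y : Conf n => (AL k x s y y).re) hA.tr
  have h2 : HasSum (fun p : Conf n => (∑ i, (p i : ℝ)) * (AL k x s p p).re)
      (∑ i, (k * (x * e i) + (k - 1))) := by
    have h3 := hasSum_sum (s := (Finset.univ : Finset (Fin n))) fun i _ =>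
      AL_en h hk.le h0 h1.le (he i)
    refine h3.congr_fun fun p => ?_
    rw [Finset.sum_mul]
  have h4 : Tendsto (fun X => ∑ y : Ct n X, (∑ i, (y.1 i : ℝ)) * (AL k x s y.1 y.1).re) atTop
      (𝓝 (∑ i, (k * (x * e i) + (k - 1)))) :=
    tendsto_sum_Ct (g := fun p : Conf n => (∑ i, (p i : ℝ)) * (AL k x s p p).re) h2
  exact ⟨hp, ht, h4⟩

end

end Vale.Agent.P369O
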