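import Vale.Agent.P369.H624.Ou3
import Vale.Agent.P369.H809.Path

/-!
P369 (helper624): the path `t ↦ amp (k t) (loss (x t) s)` for an arbitrary state `s` on the Fock
space is a `GPath`; the Ornstein-Uhlenbeck (thermal) path of an arbitrary state.
-/

namespace Vale.Agent.P369O

open Matrix MeasureTheory Set Filter
open Vale.Agent.P369 (Conf up down)
open Vale.Agent.P369A
open Vale.Agent.P369F
open Vale.Agent.P369L (bsc b1 lossI lt)
open Vale.Agent.P369W (ccV ampV)
open scoped ComplexOrder Topology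

noncomputable section

variable {n : ℕ}

/-- the equation of `t ↦ amp (k t) (loss (x t) s)` -/
theorem hasDerivAt_AL {s : Ker n} (hs : ∀ a b, ‖s a b‖ ≤ 1) {k x : ℝ → ℝ} {k' x' t : ℝ}
    (hk : 1 < k t) (hd : HasDerivAt k k' t) (h0 : 0 < x t) (h1 : x t < 1)
    (hdx : HasDerivAt x x' t) (p q : Conf n) :
    HasDerivAt (fun u => AL (k u) (x u) s p q)
      (∑ j, (((k' / k t - x' / x t * (k t - 1) : ℝ) : ℂ) * genAj (AL (k t) (x t) s) j p q +
        ((-(x' / x t) * k t : ℝ) : ℂ) * genLj (AL (k t) (x t) s) j p q)) t := by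
  have hS : ∀ p q, HasDerivAt (fun u => lossI (x u) s p q)
      ((fun p q => ∑ j, ((-(x' / x t) : ℝ) : ℂ) * genLj (lossI (x t) s) j p q) p q) t := by
    intro p q
    have h2 := (hasDerivAt_lossI hs h0 h1 p q).scomp t hdx
    refine h2.congr_deriv ?_
    simp only [Complex.real_smul, Finset.mul_sum]
    refine Finset.sum_congr rfl fun j _ => ?_
    push_cast
    ring
  have h3 := hasDerivAt_ampV_path (k := fun u (_ : Fin n) => k u) (k' := fun _ => k') (t := t)
    (fun _ => hk) (fun _ => hd) (s := fun u => lossI (x u) s) hS p q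
  refine h3.congr_deriv ?_
  rw [ampV_sum (k := fun _ : Fin n => k t) (fun _ => ((-(x' / x t) : ℝ) : ℂ))
    (fun j => genLj (lossI (x t) s) j) p q, ← Finset.sum_add_distrib]
  refine Finset.sum_congr rfl fun j _ => ?_
  rw [ampV_genLj (k := fun _ : Fin n => k t) hk (fun _ => zero_lt_one.trans hk)]
  unfold AL
  push_cast
  ring

theorem herm_AL {s : Ker n} (h : StK s) {k x : ℝ} (h0 : 0 < x) (h1 : x ≤ 1) (X : ℕ) :
    (cut X (AL k x s)).IsHermitian :=
  (ampV_psd (lossI_psd h.psd h.norm_le h0 h1) (fun _ => k) X).isHermitian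

/-- **paths of arbitrary states** -/
theorem gpath_AL {s : Ker n} (h : StK s) {e : Fin n → ℝ}
    (he : ∀ i, HasSum (fun m : Conf n => (m i : ℝ) * (s m m).re) (e i))
    {k k' x x' : ℝ → ℝ} {a b E : ℝ} {α β : ℝ → ℝ}
    (hk : ∀ t ∈ Icc a b, 1 < k t) (dk : ∀ t ∈ Icc a b, HasDerivAt k (k' t) t)
    (hx0 : ∀ t ∈ Icc a b, 0 < x t) (hx1 : ∀ t ∈ Icc a b, x t < 1)
    (dx : ∀ t ∈ Icc a b, HasDerivAt x (x' t) t)
    (hα : ∀ t ∈ Icc a b, k' t / k t - x' t / x t * (k t - 1) = α t)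
    (hβ : ∀ t ∈ Icc a b, -(x' t / x t) * k t = β t)
    (cα : ContinuousOn α (Icc a b)) (cβ : ContinuousOn β (Icc a b))
    (α0 : ∀ t ∈ Icc a b, 0 ≤ α t) (β0 : ∀ t ∈ Icc a b, 0 ≤ β t)
    (hE : ∀ t ∈ Icc a b, ∑ i, (k t * (x t * e i) + (k t - 1)) ≤ E) :
    GPath (fun t => AL (k t) (x t) s) (fun _ => α) (fun _ => β) a b E := by
  refine ⟨fun t ht => ⟨_, AL_reg h (hk t ht) (hx0 t ht) (hx1 t ht) he, hE t ht⟩,
    fun t ht X => ?_, fun t ht p q => ?_, fun _ => cα, fun _ => cβ, fun _ => α0, fun _ => β0⟩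
  · have h2 : ∀ᶠ t' in 𝓝 t, 0 < x t' :=
      (dx t ht).continuousAt.eventually (lt_mem_nhds (hx0 t ht))
    have h3 : ∀ᶠ t' in 𝓝 t, x t' < 1 :=
      (dx t ht).continuousAt.eventually (gt_mem_nhds (hx1 t ht))
    filter_upwards [h2, h3] with t' h4 h5
    exact herm_AL h h4 h5.le X
  · refine (hasDerivAt_AL h.norm_le (hk t ht) (dk t ht) (hx0 t ht) (hx1 t ht) (dx t ht) p
      q).congr_deriv ?_
    refine Finset.sum_congr rfl fun j _ => ?_
    rw [hα t ht, hβ t ht]

/-! ### the thermal path -/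

/-- the state after the quantum Ornstein-Uhlenbeck semigroup at time `t`, with thermal number `N` -/
def OU (N t : ℝ) (s : Ker n) : Ker n :=
  AL (1 + (1 - Real.exp (-t)) * N) (Real.exp (-t) / (1 + (1 - Real.exp (-t)) * N)) s

theorem ou_k {N t : ℝ} (hN : 0 < N) (ht : 0 < t) : 1 < 1 + (1 - Real.exp (-t)) * N := by
  have h1 : Real.exp (-t) < 1 := Real.exp_lt_one_iff.2 (by linarith)
  have := mul_pos (sub_pos.2 h1) hN
  linarith

theorem ou_x0 {N t : ℝ} (hN : 0 < N) (ht : 0 < t) :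
    0 < Real.exp (-t) / (1 + (1 - Real.exp (-t)) * N) :=
  div_pos (Real.exp_pos _) (zero_lt_one.trans (ou_k hN ht))

theorem ou_x1 {N t : ℝ} (hN : 0 < N) (ht : 0 < t) :
    Real.exp (-t) / (1 + (1 - Real.exp (-t)) * N) < 1 := by
  have h1 := ou_k hN ht
  have h2 : Real.exp (-t) < 1 := Real.exp_lt_one_iff.2 (by linarith)
  exact (div_lt_one (zero_lt_one.trans h1)).2 (by linarith)

theorem OU_stK {s : Ker n} (h : StK s) {N t : ℝ} (hN : 0 < N) (ht : 0 < t) : StK (OU N t s) :=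
  AL_stK h (ou_k hN ht).le (ou_x0 hN ht) (ou_x1 hN ht).le

theorem OU_en {s : Ker n} (h : StK s) {N t : ℝ} (hN : 0 < N) (ht : 0 < t) {i : Fin n} {e : ℝ}
    (he : HasSum (fun m : Conf n => (m i : ℝ) * (s m m).re) e) :
    HasSum (fun p : Conf n => (p i : ℝ) * (OU N t s p p).re)
      (Real.exp (-t) * e + (1 - Real.exp (-t)) * N) := by
  have h2 := AL_en h (ou_k hN ht).le (ou_x0 hN ht) (ou_x1 hN ht).le he
  have h3 := (zero_lt_one.trans (ou_k hN ht)).ne'
  have e : (1 + (1 - Real.exp (-t)) * N) * (Real.exp (-t) / (1 + (1 - Real.exp (-t)) * N) * e) +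
      (1 + (1 - Real.exp (-t)) * N - 1) = Real.exp (-t) * e + (1 - Real.exp (-t)) * N := by
    field_simp
    ring
  rw [e] at h2
  exact h2

theorem OU_reg {s : Ker n} (h : StK s) {N t : ℝ} (hN : 0 < N) (ht : 0 < t) {e : Fin n → ℝ}
    (he : ∀ i, HasSum (fun m : Conf n => (m i : ℝ) * (s m m).re) (e i)) :
    Reg (OU N t s) (∑ i, (Real.exp (-t) * e i + (1 - Real.exp (-t)) * N)) := by
  have h2 := AL_reg h (ou_k hN ht) (ou_x0 hN ht) (ou_x1 hN ht) he
  have h3 := (zero_lt_one.trans (ou_k hN ht)).ne'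
  have e : ∀ i, (1 + (1 - Real.exp (-t)) * N) *
      (Real.exp (-t) / (1 + (1 - Real.exp (-t)) * N) * e i) +
      (1 + (1 - Real.exp (-t)) * N - 1) = Real.exp (-t) * e i + (1 - Real.exp (-t)) * N := by
    intro i
    field_simp
    ring
  simp only [e] at h2
  exact h2

theorem ou_alg1 {E N K : ℝ} (hK : K = 1 + (1 - E) * N) (h0 : K ≠ 0) (hE : E ≠ 0) :
    E * N / K - -(E / K * (1 + E * N / K)) / (E / K) * (K - 1) = N := by
  have e3 : -(E / K * (1 + E * N / K)) / (E / K) = -(1 + E * N / K) := by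
    field_simp
  rw [e3]
  field_simp
  rw [hK]
  ring

theorem ou_alg2 {E N K : ℝ} (hK : K = 1 + (1 - E) * N) (h0 : K ≠ 0) (hE : E ≠ 0) :
    -(-(E / K * (1 + E * N / K)) / (E / K)) * K = N + 1 := by
  have e3 : -(E / K * (1 + E * N / K)) / (E / K) = -(1 + E * N / K) := by
    field_simp
  rw [e3]
  field_simp
  rw [hK]
  ring

/-- **the thermal path of an arbitrary state of finite energy is a `GPath`** with gain rate `N` and
loss rate `N + 1` in every mode -/
theorem gpath_OU {s : Ker n} (h : StK s) {e : Fin n → ℝ}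
    (he : ∀ i, HasSum (fun m : Conf n => (m i : ℝ) * (s m m).re) (e i))
    {N : ℝ} (hN : 0 < N) {a b : ℝ} (ha : 0 < a) :
    GPath (fun t => OU N t s) (fun _ _ => N) (fun _ _ => N + 1) a b (∑ i, (e i + N)) := by
  have hpos : ∀ t ∈ Icc a b, 0 < t := fun t h => ha.trans_le h.1
  have hk1 : ∀ t ∈ Icc a b, 1 < 1 + (1 - Real.exp (-t)) * N := fun t ht => ou_k hN (hpos t ht)
  have dk : ∀ t : ℝ, HasDerivAt (fun u : ℝ => 1 + (1 - Real.exp (-u)) * N)
      (Real.exp (-t) * N) t := by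
    intro t
    have h1 : HasDerivAt (fun u : ℝ => Real.exp (-u)) (Real.exp (-t) * (-1)) t :=
      (Real.hasDerivAt_exp (-t)).comp t (hasDerivAt_neg t)
    have h2 := ((h1.const_sub 1).mul_const N).const_add 1
    refine h2.congr_deriv ?_
    ring
  have hdx : ∀ t ∈ Icc a b, HasDerivAt (fun u : ℝ => Real.exp (-u) / (1 + (1 - Real.exp (-u)) * N))
      (-(Real.exp (-t) / (1 + (1 - Real.exp (-t)) * N) *
        (1 + Real.exp (-t) * N / (1 + (1 - Real.exp (-t)) * N)))) t := by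
    intro t ht
    have h0 := (zero_lt_one.trans (hk1 t ht)).ne'
    have h1 : HasDerivAt (fun u : ℝ => Real.exp (-u)) (Real.exp (-t) * (-1)) t :=
      (Real.hasDerivAt_exp (-t)).comp t (hasDerivAt_neg t)
    have h2 := h1.div (dk t) h0
    refine h2.congr_deriv ?_
    field_simp
    ring
  refine gpath_AL h he (k := fun t => 1 + (1 - Real.exp (-t)) * N)
    (x := fun t => Real.exp (-t) / (1 + (1 - Real.exp (-t)) * N))
    (k' := fun t => Real.exp (-t) * N)
    (x' := fun t => -(Real.exp (-t) / (1 + (1 - Real.exp (-t)) * N) *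
        (1 + Real.exp (-t) * N / (1 + (1 - Real.exp (-t)) * N))))
    hk1 (fun t _ => dk t) (fun t ht => ou_x0 hN (hpos t ht)) (fun t ht => ou_x1 hN (hpos t ht))
    hdx (fun t ht => ?_) (fun t ht => ?_) continuousOn_const continuousOn_const
    (fun _ _ => hN.le) (fun _ _ => by linarith) (fun t ht => ?_)
  · exact ou_alg1 rfl (zero_lt_one.trans (hk1 t ht)).ne' (Real.exp_pos (-t)).ne'
  · exact ou_alg2 rfl (zero_lt_one.trans (hk1 t ht)).ne' (Real.exp_pos (-t)).ne'
  · refine Finset.sum_le_sum fun i _ => ?_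
    have h1 := (zero_lt_one.trans (hk1 t ht)).ne'
    have e1 : (1 + (1 - Real.exp (-t)) * N) *
      (Real.exp (-t) / (1 + (1 - Real.exp (-t)) * N) * e i) = Real.exp (-t) * e i := by
      field_simp
    rw [e1]
    have h2 : Real.exp (-t) ≤ 1 := Real.exp_le_one_iff.2 (by linarith [hpos t ht])
    have h3 := Real.exp_pos (-t)
    have h4 : 0 ≤ e i := (he i).nonneg fun m =>
      mul_nonneg (Nat.cast_nonneg _) (diag_nonneg_of_cut h.psd _)
    nlinarith

end

end Vale.Agent.P369O
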